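import Vale.Agent.P243.Affine

open MeasureTheory Set
open scoped RealInnerProductSpace

namespace Vale.Agent.Results.P243.BeyondOneThird

/-- Every finite covering of a convex body `K` of `ℝ³` by cylinders has directionwise relative area
at least `1/3 + 10⁻¹⁸`. The `i`-th cylinder has direction the unit vector `u i`; the plane
orthogonal to `u i` is identified with `ℝ × ℝ` through its orthonormal basis `f i, e i`, so the
orthogonal projection onto this plane is `x ↦ (⟪f i, x⟫, ⟪e i, x⟫)`; the base `B i` is an arbitrary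
subset of this plane and its area is its outer Lebesgue measure. The covering condition says that
each point of `K` projects into some `B i`. -/
theorem result (K : Set (EuclideanSpace ℝ (Fin 3))) (hconv : Convex ℝ K) (hcpt : IsCompact K)
    (hint : (interior K).Nonempty) {ι : Type*} [Fintype ι]
    (f e u : ι → EuclideanSpace ℝ (Fin 3)) (hfr : ∀ i, Orthonormal ℝ ![f i, e i, u i])
    (B : ι → Set (ℝ × ℝ))
    (hcov : ∀ x ∈ K, ∃ i, (⟪f i, x⟫, ⟪e i, x⟫) ∈ B i) :
    ENNReal.ofReal (1 / 3 + 1 / 10 ^ 18) ≤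
      ∑ i, volume (B i) / volume ((fun x => ((⟪f i, x⟫, ⟪e i, x⟫) : ℝ × ℝ)) '' K) := by
  have hF : ∀ i, Vale.Agent.P243.Frame (f i) (e i) (u i) := by
    intro i
    have h := hfr i
    refine ⟨?_, ?_, ?_, ?_, ?_, ?_⟩
    · simpa using h.1 0
    · simpa using h.1 1
    · simpa using h.1 2
    · simpa using h.2 (i := 0) (j := 1) (by decide)
    · simpa using h.2 (i := 0) (j := 2) (by decide)
    · simpa using h.2 (i := 1) (j := 2) (by decide)
  obtain ⟨T₀, c, hN, hV⟩ := Vale.Agent.P243.exists_normalization hconv hcpt hint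
  -- the bases in the planes orthogonal to `u i`
  let B' : ∀ i, Set (ℝ ∙ u i)ᗮ := fun i =>
    (fun y : (ℝ ∙ u i)ᗮ => ((⟪f i, (y : EuclideanSpace ℝ (Fin 3))⟫,
      ⟪e i, (y : EuclideanSpace ℝ (Fin 3))⟫) : ℝ × ℝ)) ⁻¹' B i
  have h := Vale.Agent.P243.bound_of_normalization hN hV u (fun i => (hF i).nu) B' (by
    intro x hx
    obtain ⟨i, hi⟩ := hcov x hx
    refine ⟨i, ?_⟩
    show ((⟪f i, (((ℝ ∙ u i)ᗮ.orthogonalProjectionOnto x : (ℝ ∙ u i)ᗮ) : EuclideanSpace ℝ (Fin 3))⟫,
      ⟪e i, (((ℝ ∙ u i)ᗮ.orthogonalProjectionOnto x : (ℝ ∙ u i)ᗮ) : EuclideanSpace ℝ (Fin 3))⟫) : ℝ × ℝ) ∈ B i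
    rw [(hF i).inner_proj_f, (hF i).inner_proj_e]
    exact hi)
  have e1 : (1 / 3 + 1 / 10 ^ 18 : ℝ) = 1 / 3 + 1e-18 := by norm_num
  rw [e1]
  refine h.trans (le_of_eq ?_)
  refine Finset.sum_congr rfl fun i _ => ?_
  have e2 : volume ((fun x => ((⟪f i, x⟫, ⟪e i, x⟫) : ℝ × ℝ)) '' K)
      = volume ((ℝ ∙ u i)ᗮ.orthogonalProjectionOnto '' K) := by
    rw [← (hF i).volume_shadow K]
    congr 1
    rw [image_image]
    rfl
  have e3 : volume (B' i) = volume (B i) := by
    obtain ⟨ψ, hψ, hc⟩ := (hF i).exists_equiv2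
    have e4 : B' i = ψ ⁻¹' B i := by
      ext y
      simp only [B', mem_preimage, hc]
    rw [e4]
    exact hψ.measure_preimage_equiv _
  rw [e2, e3]

end Vale.Agent.Results.P243.BeyondOneThird
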