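import Vale.Agent.Lib.P243Main

open Vale.Agent.P243

/-- Refined volume inequality for finite cylinder coverings of a convex body in `ℝ³`;
in particular the half-area inequality for coverings by at most two cylinders. -/
theorem Vale.Agent.Results.P243.ConeBound.result
    (K : Set E3) (hK : IsConvexBody K)
    {m : ℕ} (u : Fin m → E3) (B : Fin m → Set E3) (hcov : CylinderCover K u B) :
    (1 ≤ ∑ i, (3 * relArea K (u i) (B i) - 2 * relArea K (u i) (B i) * √(relArea K (u i) (B i)))) ∧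
    (∀ w : ℝ, 0 ≤ w → 1 ≤ 3 * (1 - w) * (∑ i, relArea K (u i) (B i)) + m * w ^ 3) ∧
    (m ≤ 2 → 1 / 2 ≤ ∑ i, relArea K (u i) (B i)) ∧
    (m ≤ 2 → ∀ a : ENNReal, (∀ v : E3, ‖v‖ = 1 → a ≤ area (shadow v K)) →
      a / 2 ≤ ∑ i, area (B i)) :=
  ⟨sum_bound hK hcov, fun _ hw => tangent_bound hK hcov hw,
    fun hm => half_bound hK hm hcov, fun hm _ ha => half_area hK hm hcov ha⟩
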