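import Vale.Agent.P243s.Assembly

open MeasureTheory Set
open scoped RealInnerProductSpace

namespace Vale.Agent.Results.P243.SymmetricFiveTwelfths

/-- Every finite covering of a centrally symmetric convex body `K` of `ℝ³` by cylinders has
directionwise relative area at least `5/12`. The `i`-th cylinder has direction the unit vector
`u i`; the plane orthogonal to `u i` is identified with `ℝ × ℝ` through its orthonormal basis
`f i, e i`, so the orthogonal projection onto this plane is `x ↦ (⟪f i, x⟫, ⟪e i, x⟫)`; the base
`B i` is an arbitrary subset of this plane and its area is its outer Lebesgue measure. The covering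
condition says that each point of `K` projects into some `B i`. -/
theorem result (K : Set (EuclideanSpace ℝ (Fin 3))) (hconv : Convex ℝ K) (hcpt : IsCompact K)
    (hint : (interior K).Nonempty) (hsymm : ∀ x ∈ K, -x ∈ K) {ι : Type*} [Fintype ι]
    (f e u : ι → EuclideanSpace ℝ (Fin 3)) (hfr : ∀ i, Orthonormal ℝ ![f i, e i, u i])
    (B : ι → Set (ℝ × ℝ))
    (hcov : ∀ x ∈ K, ∃ i, (⟪f i, x⟫, ⟪e i, x⟫) ∈ B i) :
    ENNReal.ofReal (5 / 12) ≤
      ∑ i, volume (B i) / volume ((fun x => ((⟪f i, x⟫, ⟪e i, x⟫) : ℝ × ℝ)) '' K) := by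
  have hF : ∀ i, Vale.Agent.P243.Frame (f i) (e i) (u i) := by
    intro i
    have h := hfr i
    refine ⟨?_, ?_, ?_, ?_, ?_, ?_⟩
    · simpa using h.1 0
    · simpa using h.1 1
    · simpa using h.1 2
    · simpa using h.2 (i := 0) (j := 1) (by decide)
    · simpa using h.2 (i := 0) (j := 2) (by decide)
    · simpa using h.2 (i := 1) (j := 2) (by decide)
  exact Vale.Agent.P243s.five_twelfths hcpt hconv hint hsymm f e u hF B hcov

end Vale.Agent.Results.P243.SymmetricFiveTwelfths
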